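import Vale.Agent.P002.R2.H955B.Eig

/-!
# Condition (d) for homomorphisms to a special linear group
-/

namespace Vale.Agent.P002.R2.H955B

open Module Module.End

/-- **Condition (d), matrix form.** -/
theorem case_d {G : Type*} [Group G] {r : ℕ} (f : G →* Matrix.SpecialLinearGroup (Fin r) ℂ)
    (A : Subgroup G) (hA : ∀ a ∈ A, ∀ b ∈ A, a * b = b * a) (t g : G) (hg : g ∈ A)
    (ht : ∀ a, a ∈ A ↔ t * a * t⁻¹ ∈ A)
    (h : ∀ m : ℕ, 0 < m → ∃ n : ℕ, 0 < n ∧ ∃ a ∈ A, g ^ n = t ^ m * a * (t ^ m)⁻¹ * a⁻¹)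
    (z : ℂ) (hz : (f g).1.charpoly.IsRoot z) : ∃ n : ℕ, 0 < n ∧ z ^ n = 1 := by
  let φ : G →* Module.End ℂ (Fin r → ℂ) :=
    { toFun := fun g => Matrix.toLin' (f g).1
      map_one' := by
        rw [map_one, Matrix.SpecialLinearGroup.coe_one, Matrix.toLin'_one]
        rfl
      map_mul' := fun x y => by
        rw [map_mul, Matrix.SpecialLinearGroup.coe_mul, Matrix.toLin'_mul]
        rfl }
  refine eig_of_abelian φ A hA (fun x hx => (ht x).1 hx) (fun x hx => (ht _).2 ?_) hg h ?_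
  · have : t * (t⁻¹ * x * t) * t⁻¹ = x := by group
    rwa [this]
  · rw [Module.End.hasEigenvalue_iff_isRoot_charpoly]
    change (Matrix.toLin' (f g).1).charpoly.IsRoot z
    rwa [Matrix.charpoly_toLin']

end Vale.Agent.P002.R2.H955B
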