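import Mathlib

/-!
# Group-theoretic conditions which force quasi-unipotent images
-/

namespace Vale.Agent.P002.R2.H955B

open Module Module.End

variable {K V G : Type*} [Field K] [AddCommGroup V] [Module K V] [Group G]

/-- eigenvalues of the image of a group element are not zero -/
theorem eig_ne_zero (φ : G →* Module.End K V) {g : G} {v : V} {z : K} (hv : v ≠ 0)
    (h : φ g v = z • v) : z ≠ 0 := by
  rintro rfl
  rw [zero_smul] at h
  apply hv
  have h1 : φ g⁻¹ (φ g v) = v := by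
    rw [← Module.End.mul_apply, ← map_mul, inv_mul_cancel, map_one, Module.End.one_apply]
  rw [← h1, h, map_zero]

theorem eig_inv (φ : G →* Module.End K V) {g : G} {v : V} {z : K} (hv : v ≠ 0)
    (h : φ g v = z • v) : φ g⁻¹ v = z⁻¹ • v := by
  have h0 := eig_ne_zero φ hv h
  have h1 : φ g⁻¹ (φ g v) = v := by
    rw [← Module.End.mul_apply, ← map_mul, inv_mul_cancel, map_one, Module.End.one_apply]
  rw [h, map_smul] at h1
  rw [← h1, smul_smul, inv_mul_cancel₀ h0, one_smul, h1]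

theorem eig_pow (φ : G →* Module.End K V) {g : G} {v : V} {z : K}
    (h : φ g v = z • v) (n : ℕ) : φ (g ^ n) v = z ^ n • v := by
  induction n with
  | zero => simp
  | succ n ih =>
    rw [pow_succ, map_mul, Module.End.mul_apply, h, map_smul, ih, smul_smul, pow_succ, mul_comm]

theorem eig_zpow (φ : G →* Module.End K V) {g : G} {v : V} {z : K} (hv : v ≠ 0)
    (h : φ g v = z • v) (n : ℤ) : φ (g ^ n) v = z ^ n • v := by
  cases n with
  | ofNat n => simpa using eig_pow φ h n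
  | negSucc n =>
    rw [zpow_negSucc, zpow_negSucc]
    exact eig_inv φ hv (eig_pow φ h _)

variable [IsAlgClosed K] [FiniteDimensional K V]

/-- an eigenvalue of a power is a power of an eigenvalue -/
theorem exists_eig_of_zpow (φ : G →* Module.End K V) {g : G} {b : ℤ} {w : K}
    (h : HasEigenvalue (φ (g ^ b)) w) : ∃ z, HasEigenvalue (φ g) z ∧ z ^ b = w := by
  let W := eigenspace (φ (g ^ b)) w
  have hW : ∀ v ∈ W, φ g v ∈ W := by
    intro v hv
    rw [mem_eigenspace_iff] at hv ⊢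
    rw [← Module.End.mul_apply, ← map_mul]
    have : g ^ b * g = g * g ^ b := by rw [← zpow_add_one, ← zpow_one_add, add_comm]
    rw [this, map_mul, Module.End.mul_apply, hv, map_smul]
  have : Nontrivial W := Submodule.nontrivial_iff_ne_bot.2 h
  obtain ⟨z, hz⟩ := Module.End.exists_eigenvalue ((φ g).restrict hW)
  obtain ⟨v, hv⟩ := hz.exists_hasEigenvector
  have hv0 : (v : V) ≠ 0 := fun h0 => hv.2 (Subtype.ext h0)
  have hv1 : φ g v = z • (v : V) := by
    have := congrArg Subtype.val (mem_eigenspace_iff.1 hv.1)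
    simpa using this
  refine ⟨z, hasEigenvalue_of_hasEigenvector ⟨mem_eigenspace_iff.2 hv1, hv0⟩, ?_⟩
  have h2 := eig_zpow φ hv0 hv1 b
  have h3 : φ (g ^ b) v = w • (v : V) := mem_eigenspace_iff.1 v.2
  rw [h3] at h2
  exact (smul_left_injective K hv0 h2).symm

/-- **Condition (a).** If `g ^ a` is conjugate to `g ^ b` with `|a| ≠ |b|`, the eigenvalues of the
image of `g` in every representation are roots of unity. -/
theorem eig_of_conj_zpow (φ : G →* Module.End K V) {g h : G} {a b : ℤ}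
    (hab : |a| ≠ |b|) (hg : h * g ^ a * h⁻¹ = g ^ b) {z : K}
    (hz : HasEigenvalue (φ g) z) : ∃ n : ℕ, 0 < n ∧ z ^ n = 1 := by
  have hne : ∀ z, HasEigenvalue (φ g) z → z ≠ 0 := by
    intro z hz
    obtain ⟨v, hv⟩ := hz.exists_hasEigenvector
    exact eig_ne_zero φ hv.2 (mem_eigenspace_iff.1 hv.1)
  have key : ∀ (x : K) (m : ℤ), m ≠ 0 → x ^ m = 1 → ∃ n : ℕ, 0 < n ∧ x ^ n = 1 := by
    intro x m hm hx
    refine ⟨m.natAbs, Int.natAbs_pos.2 hm, ?_⟩
    rcases Int.natAbs_eq m with h1 | h1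
    · rw [h1, zpow_natCast] at hx
      exact hx
    · rw [h1, zpow_neg, zpow_natCast, inv_eq_one] at hx
      exact hx
  have step : ∀ z, HasEigenvalue (φ g) z → ∃ z', HasEigenvalue (φ g) z' ∧ z' ^ b = z ^ a := by
    intro z hz
    obtain ⟨v, hv⟩ := hz.exists_hasEigenvector
    have h1 := eig_zpow φ hv.2 (mem_eigenspace_iff.1 hv.1) a
    refine exists_eig_of_zpow φ ?_
    have h2 : φ h v ≠ 0 := by
      intro h3
      apply hv.2
      have h4 : φ h⁻¹ (φ h v) = v := by
        rw [← Module.End.mul_apply, ← map_mul, inv_mul_cancel, map_one, Module.End.one_apply]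
      rw [← h4, h3, map_zero]
    refine hasEigenvalue_of_hasEigenvector (x := φ h v) ⟨mem_eigenspace_iff.2 ?_, h2⟩
    rw [← hg, ← Module.End.mul_apply, ← map_mul, inv_mul_cancel_right, map_mul,
      Module.End.mul_apply, h1, map_smul]
  choose! F hF1 hF2 using step
  let s : ℕ → {x // HasEigenvalue (φ g) x} := fun n => n.rec ⟨z, hz⟩ fun _ x => ⟨F x, hF1 x x.2⟩
  have : Finite {x // HasEigenvalue (φ g) x} := (φ g).finite_hasEigenvalue
  have hs : ∀ n : ℕ, (s (n + 1)).1 ^ b = (s n).1 ^ a := fun n => hF2 (s n).1 (s n).2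
  have hpow : ∀ i k : ℕ, (s (i + k)).1 ^ (b ^ k) = (s i).1 ^ (a ^ k) := by
    intro i k
    induction k with
    | zero => simp
    | succ k ih =>
      rw [pow_succ, ← add_assoc, mul_comm, zpow_mul, hs, ← zpow_mul, mul_comm, zpow_mul, ih,
        ← zpow_mul, ← pow_succ]
  obtain ⟨i, j, hij, he⟩ := Finite.exists_ne_map_eq_of_infinite s
  wlog hlt : i < j generalizing i j
  · exact this j i hij.symm he.symm (by omega)
  obtain ⟨k, rfl⟩ := Nat.exists_eq_add_of_lt hlt
  have h1 := hpow i (k + 1)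
  rw [← add_assoc, ← he] at h1
  have hnei : (s i).1 ≠ 0 := hne _ (s i).2
  have h2 : (s i).1 ^ (b ^ (k + 1) - a ^ (k + 1)) = 1 := by
    rw [zpow_sub₀ hnei, h1, div_self (zpow_ne_zero _ hnei)]
  have h3 : b ^ (k + 1) - a ^ (k + 1) ≠ 0 := by
    intro h4
    apply hab
    have h5 : |a| ^ (k + 1) = |b| ^ (k + 1) := by rw [← abs_pow, ← abs_pow, sub_eq_zero.1 h4]
    exact (pow_left_inj₀ (abs_nonneg a) (abs_nonneg b) (by omega)).1 h5
  obtain ⟨n, hn, h4⟩ := key _ _ h3 h2
  by_cases ha : a = 0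
  · subst ha
    have hb : b ≠ 0 := fun h => hab (by rw [h])
    obtain ⟨v, hv⟩ := hz.exists_hasEigenvector
    have h5 := eig_zpow φ hv.2 (mem_eigenspace_iff.1 hv.1) b
    have h6 : g ^ b = 1 := by rw [← hg]; simp
    rw [h6, map_one, Module.End.one_apply] at h5
    refine key z b hb ?_
    have h7 : (1 : K) • v = z ^ b • v := by rw [one_smul]; exact h5
    exact (smul_left_injective K hv.2 h7).symm
  · have h5 := hpow 0 i
    rw [zero_add] at h5
    refine key z (a ^ i * n) (mul_ne_zero (pow_ne_zero _ ha) (by exact_mod_cast hn.ne')) ?_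
    have h6 : (s 0).1 = z := rfl
    rw [h6] at h5
    rw [zpow_mul, ← h5, zpow_natCast, ← zpow_natCast, ← zpow_mul, mul_comm, zpow_mul,
      zpow_natCast, h4, one_zpow]

/-- commuting images on a stable subspace have a common eigenvector -/
theorem exists_common_eig (φ : G →* Module.End K V) (A : Subgroup G)
    (hA : ∀ x ∈ A, ∀ y ∈ A, x * y = y * x) (W : Submodule K V) (hW : W ≠ ⊥)
    (hst : ∀ x ∈ A, ∀ v ∈ W, φ x v ∈ W) :
    ∃ v ∈ W, v ≠ 0 ∧ ∀ x ∈ A, ∃ c : K, φ x v = c • v := by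
  induction hn : finrank K W using Nat.strong_induction_on generalizing W with
  | _ n ih =>
    by_cases hs : ∀ x ∈ A, ∃ c : K, ∀ v ∈ W, φ x v = c • v
    · obtain ⟨v, hv, hv0⟩ := W.ne_bot_iff.1 hW
      refine ⟨v, hv, hv0, fun x hx => ?_⟩
      obtain ⟨c, hc⟩ := hs x hx
      exact ⟨c, hc v hv⟩
    · push Not at hs
      obtain ⟨x, hx, hs⟩ := hs
      have : Nontrivial W := Submodule.nontrivial_iff_ne_bot.2 hW
      obtain ⟨c, hc⟩ := Module.End.exists_eigenvalue ((φ x).restrict (hst x hx))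
      obtain ⟨w, hw⟩ := hc.exists_hasEigenvector
      have hw0 : (w : V) ≠ 0 := fun h0 => hw.2 (Subtype.ext h0)
      have hw1 : φ x w = c • (w : V) := by
        have := congrArg Subtype.val (mem_eigenspace_iff.1 hw.1)
        simpa using this
      let W' := W ⊓ eigenspace (φ x) c
      have hlt : W' < W := by
        refine lt_of_le_of_ne inf_le_left fun h => ?_
        obtain ⟨u, hu, hne⟩ := hs c
        have : u ∈ W' := by
          rw [h]
          exact hu
        exact hne (mem_eigenspace_iff.1 this.2)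
      obtain ⟨v, hv, hv0, hv1⟩ := ih (finrank K W') (by
        rw [← hn]
        exact Submodule.finrank_lt_finrank_of_lt hlt) W'
        (W'.ne_bot_iff.2 ⟨w, ⟨w.2, mem_eigenspace_iff.2 hw1⟩, hw0⟩) (by
          intro y hy v hv
          refine ⟨hst y hy v hv.1, mem_eigenspace_iff.2 ?_⟩
          rw [← Module.End.mul_apply, ← map_mul, hA x hx y hy, map_mul, Module.End.mul_apply,
            mem_eigenspace_iff.1 hv.2, map_smul]) rfl
      exact ⟨v, hv.1, hv0, hv1⟩

/-- **Condition (d).** Let `A` be an abelian subgroup which is mapped to itself by `t` and `t⁻¹`.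
If for every `m ≥ 1` some power of `g ∈ A` is of the form `t ^ m * x * (t ^ m)⁻¹ * x⁻¹`, `x ∈ A`,
the eigenvalues of the image of `g` in every representation are roots of unity. -/
theorem eig_of_abelian (φ : G →* Module.End K V) (A : Subgroup G)
    (hA : ∀ x ∈ A, ∀ y ∈ A, x * y = y * x) {t g : G} (ht : ∀ x ∈ A, t * x * t⁻¹ ∈ A)
    (ht' : ∀ x ∈ A, t⁻¹ * x * t ∈ A) (hg : g ∈ A)
    (hm : ∀ m : ℕ, 0 < m → ∃ N : ℕ, 0 < N ∧ ∃ x ∈ A, g ^ N = t ^ m * x * (t ^ m)⁻¹ * x⁻¹) {z : K}
    (hz : HasEigenvalue (φ g) z) : ∃ n : ℕ, 0 < n ∧ z ^ n = 1 := by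
  obtain ⟨v, hv, hv0, hv1⟩ := exists_common_eig φ A hA (eigenspace (φ g) z) hz (by
    intro x hx v hv
    rw [mem_eigenspace_iff] at hv ⊢
    rw [← Module.End.mul_apply, ← map_mul, hA g hg x hx, map_mul, Module.End.mul_apply, hv,
      map_smul])
  choose! χ hχ using hv1
  have htn : ∀ (n : ℕ), ∀ x ∈ A, t ^ n * x * (t ^ n)⁻¹ ∈ A := by
    intro n
    induction n with
    | zero => intro x hx; simpa using hx
    | succ n ih =>
      intro x hx
      have := ht _ (ih x hx)
      rw [pow_succ']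
      simpa [mul_assoc] using this
  have htn' : ∀ (n : ℕ), ∀ x ∈ A, (t ^ n)⁻¹ * x * t ^ n ∈ A := by
    intro n
    induction n with
    | zero => intro x hx; simpa using hx
    | succ n ih =>
      intro x hx
      have := ih _ (ht' x hx)
      rw [pow_succ']
      simpa [mul_assoc] using this
  let f : A → Module.End K V := fun x => φ x
  have hcomm : ∀ i j : A, Commute (f i) (f j) := by
    intro i j
    change φ i * φ j = φ j * φ i
    rw [← map_mul, ← map_mul, hA i i.2 j j.2]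
  have hind := independent_iInf_maxGenEigenspace_of_forall_mapsTo f
    fun i j μ => mapsTo_maxGenEigenspace_of_comm (hcomm j i) μ
  let c : Fin (finrank K V + 1) → A → K := fun i x => χ ((t ^ (i : ℕ))⁻¹ * x * t ^ (i : ℕ))
  let u : Fin (finrank K V + 1) → V := fun i => φ (t ^ (i : ℕ)) v
  have hu0 : ∀ i, u i ≠ 0 := by
    intro i h
    apply hv0
    have h4 : φ (t ^ (i : ℕ))⁻¹ (φ (t ^ (i : ℕ)) v) = v := by
      rw [← Module.End.mul_apply, ← map_mul, inv_mul_cancel, map_one, Module.End.one_apply]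
    rw [← h4]
    change φ (t ^ (i : ℕ))⁻¹ (u i) = 0
    rw [h, map_zero]
  have hu : ∀ i, u i ∈ ⨅ x, (f x).maxGenEigenspace (c i x) := by
    intro i
    rw [Submodule.mem_iInf]
    intro x
    have h1 : f x (u i) = c i x • u i := by
      change φ x (φ (t ^ (i : ℕ)) v) = _
      rw [← Module.End.mul_apply, ← map_mul]
      have h2 : (x : G) * t ^ (i : ℕ) = t ^ (i : ℕ) * ((t ^ (i : ℕ))⁻¹ * x * t ^ (i : ℕ)) := by
        group
      rw [h2, map_mul, Module.End.mul_apply, hχ _ (htn' i x x.2), map_smul]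
    exact (f x).genEigenspace_le_maximal _ _ (mem_eigenspace_iff.2 h1)
  have hninj : ¬ Function.Injective c := by
    intro hinj
    have h1 := (hind.comp hinj).linearIndependent _ hu hu0
    have h2 := h1.fintype_card_le_finrank
    rw [Fintype.card_fin] at h2
    omega
  obtain ⟨i, j, hc, hij⟩ : ∃ i j, c i = c j ∧ i ≠ j := by
    simpa [Function.Injective] using hninj
  wlog hlt : i < j generalizing i j
  · exact this j i hc.symm hij.symm (lt_of_le_of_ne (not_lt.1 hlt) hij.symm)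
  obtain ⟨k, hk⟩ := Nat.exists_eq_add_of_lt (Fin.lt_def.1 hlt)
  obtain ⟨N, hN, x, hx, hgx⟩ := hm (k + 1) (by omega)
  have h1 := congrFun hc ⟨t ^ (j : ℕ) * x * (t ^ (j : ℕ))⁻¹, htn j x hx⟩
  have h2 : χ (t ^ (k + 1) * x * (t ^ (k + 1))⁻¹) = χ x := by
    change χ ((t ^ (i : ℕ))⁻¹ * (t ^ (j : ℕ) * x * (t ^ (j : ℕ))⁻¹) * t ^ (i : ℕ)) =
      χ ((t ^ (j : ℕ))⁻¹ * (t ^ (j : ℕ) * x * (t ^ (j : ℕ))⁻¹) * t ^ (j : ℕ)) at h1
    have h3 : (t ^ (i : ℕ))⁻¹ * (t ^ (j : ℕ) * x * (t ^ (j : ℕ))⁻¹) * t ^ (i : ℕ) =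
        t ^ (k + 1) * x * (t ^ (k + 1))⁻¹ := by
      have : (j : ℕ) = (i : ℕ) + (k + 1) := by omega
      rw [this, pow_add]
      group
    have h4 : (t ^ (j : ℕ))⁻¹ * (t ^ (j : ℕ) * x * (t ^ (j : ℕ))⁻¹) * t ^ (j : ℕ) = x := by
      group
    rwa [h3, h4] at h1
  refine ⟨N, hN, ?_⟩
  have h5 := eig_pow φ (mem_eigenspace_iff.1 hv) N
  rw [hgx, map_mul, Module.End.mul_apply, eig_inv φ hv0 (hχ x hx), map_smul,
    hχ _ (htn _ x hx), h2, smul_smul, inv_mul_cancel₀ (eig_ne_zero φ hv0 (hχ x hx))] at h5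
  exact (smul_left_injective K hv0 h5).symm

end Vale.Agent.P002.R2.H955B
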